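import Vale.Agent.Lib.P170S.Conv

namespace Vale.Agent.Results.P170.ABlockInterpolation

open Filter Topology
open Vale.Agent.Lib.P170

/-- Interpolation for random `k`-SAT at zero temperature, `k ≥ 2`.

(1) Finite size inequality: for all `R, ε, θ > 0` and all large `n₁, n₂`, uniformly for densities
`α ∈ [0, R]`, the probability that a formula of density `α` on `n₁ + n₂` variables is satisfiable is
at least the product of the probabilities for `n₁` and `n₂` variables at density `α + ε`, minus `θ`.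

For every threshold sequence `r`:
(2) `r (n₁ + n₂) ≥ min (r n₁) (r n₂) - o(1)` as `min n₁ n₂ → ∞`;
(3) `r (K * n) ≥ r n - o(1)` for every fixed `K ≥ 1`;
(4) `r n ≥ (n / N) ^ (k - 1) * r N - o(1)`, uniformly in `N ≥ n`, as `n → ∞`;
(5) `r N ≥ r n - ε` for all large `n` and all `N` in `[Λ n, Λ' n]`, where `Λ` depends on `ε` only;
(6) if `r` converges along one sequence `s` tending to infinity with `s (j + 1) ≤ C * s j`
(for instance along the powers of two), then `r` converges to the same limit. -/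
theorem result (k : ℕ) (hk : 2 ≤ k) :
    (∀ R ε θ : ℝ, 0 < R → 0 < ε → 0 < θ →
      ∃ n₀ : ℕ, ∀ n₁ n₂ : ℕ, n₀ ≤ n₁ → n₀ ≤ n₂ → ∀ α : ℝ, 0 ≤ α → α ≤ R →
        satProb k n₁ ⌊(α + ε) * n₁⌋₊ * satProb k n₂ ⌊(α + ε) * n₂⌋₊ - θ
          ≤ satProb k (n₁ + n₂) ⌊α * ((n₁ + n₂ : ℕ) : ℝ)⌋₊) ∧
    ∀ r : ℕ → ℝ, IsThresholdSeq k r →
      (∀ ε : ℝ, 0 < ε → ∃ n₀ : ℕ, ∀ n₁ n₂ : ℕ, n₀ ≤ n₁ → n₀ ≤ n₂ →
        min (r n₁) (r n₂) - ε ≤ r (n₁ + n₂)) ∧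
      (∀ K : ℕ, 1 ≤ K → ∀ ε : ℝ, 0 < ε → ∃ n₀ : ℕ, ∀ n : ℕ, n₀ ≤ n → r n - ε ≤ r (K * n)) ∧
      (∀ ε : ℝ, 0 < ε → ∃ n₀ : ℕ, ∀ n N : ℕ, n₀ ≤ n → n ≤ N →
        ((n:ℝ) / N) ^ (k - 1) * r N - ε ≤ r n) ∧
      (∀ ε : ℝ, 0 < ε → ∃ Λ : ℕ, 0 < Λ ∧ ∀ Λ' : ℕ, ∃ n₀ : ℕ, ∀ n N : ℕ, n₀ ≤ n → Λ * n ≤ N →
        N ≤ Λ' * n → r n - ε ≤ r N) ∧
      (∀ (s : ℕ → ℕ) (C : ℕ) (ρ : ℝ), Tendsto s atTop atTop → (∀ j, s (j + 1) ≤ C * s j) →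
        Tendsto (fun j => r (s j)) atTop (𝓝 ρ) → Tendsto r atTop (𝓝 ρ)) := by
  refine ⟨fun R ε θ hR hε hθ => Vale.Agent.Lib.P170S.finite_size hk hR hε hθ, fun r hr => ?_⟩
  refine ⟨fun ε hε => Vale.Agent.Lib.P170S.sum_closure hk hr hε, ?_,
    fun ε hε => Vale.Agent.Lib.P170S.growth_bound hk hr hε,
    fun ε hε => Vale.Agent.Lib.P170S.asymptotic_mono hk hr hε,
    fun s C ρ hs hC hlim => Vale.Agent.Lib.P170S.converges_of_subseq hk hr hs hC hlim⟩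
  intro K hK ε hε
  obtain ⟨K', rfl⟩ : ∃ K', K = K' + 1 := ⟨K - 1, by omega⟩
  exact Vale.Agent.Lib.P170S.mult_closure hk hr K' hε

end Vale.Agent.Results.P170.ABlockInterpolation
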