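import Vale.Agent.Lib.P170T.VarB
import Vale.Agent.Lib.P170T.Window
import Vale.Agent.Lib.P170T.Hall

namespace Vale.Agent.Results.P170.AThreshold

open Filter Topology
open Vale.Agent.Lib.P170 Vale.Agent.Lib.P170T

/-- The satisfiability threshold conjecture: for every `k ≥ 3` random `k`-SAT has a limiting
threshold `α ∈ (0, ∞)`. `satProb k n m` is the fraction of satisfiable sequences among all sequences
of `m` proper `k`-clauses on `n` variables. -/
theorem result (k : ℕ) (hk : 3 ≤ k) :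
    ∃ α : ℝ, 0 < α ∧
      (∀ c : ℝ, c < α → Tendsto (fun n : ℕ => satProb k n ⌊c * n⌋₊) atTop (𝓝 1)) ∧
      (∀ c : ℝ, α < c → Tendsto (fun n : ℕ => satProb k n ⌊c * n⌋₊) atTop (𝓝 0)) := by
  obtain ⟨l, rfl⟩ : ∃ l, k = l + 3 := ⟨k - 3, by omega⟩
  obtain ⟨C1, _, hC1, C4, hC4, N0, hV⟩ := var_scale l
  have hW := polyWindow_of_var hC1 hC4.le (N0 := N0) (fun N hN => hV N hN)
  obtain ⟨α, _, hlo, hup⟩ := limit_of_window (by omega) hW
  obtain ⟨c, hc, hall⟩ := hall_positive (l + 3) (by omega)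
  exact ⟨α, limit_pos hup hc hall, hlo, hup⟩

end Vale.Agent.Results.P170.AThreshold
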