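import Vale.Agent.Lib.P170.Main

open Filter Topology

/-- Threshold sequences of random `k`-SAT vary slowly: `r (n + T n) - r n → 0`, for any bounded
shift and even for polynomially growing shifts `T n ≤ n ^ (1 / (4 k + 6))`. -/
theorem Vale.Agent.Results.P170.SlowVariation.result (k : ℕ) (hk : 2 ≤ k) (r : ℕ → ℝ)
    (hr : Vale.Agent.Lib.P170.IsThresholdSeq k r) (T : ℕ → ℕ)
    (hT : ∀ᶠ n in atTop, (T n) ^ (4 * k + 6) ≤ n) :
    Tendsto (fun n => r (n + T n) - r n) atTop (𝓝 0) := by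
  obtain ⟨j, rfl⟩ : ∃ j, k = j + 1 := ⟨k - 1, by omega⟩
  exact Vale.Agent.Lib.P170.slow_variation (by omega) hr hT
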